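import Vale.Agent.Lib.P193.Diag

/-!
# P193: the diagonal set is decidable, and the diagonal group does not embed
-/

namespace Vale.Agent.Lib.P193

open Primrec

section

variable {α : Type*} [Primcodable α]

lemma primrec_invRev : Primrec (FreeGroup.invRev : List (α × Bool) → List (α × Bool)) := by
  unfold FreeGroup.invRev
  exact list_reverse.comp (list_map Primrec.id
    ((fst.comp snd).pair (Primrec.not.comp (snd.comp snd))).to₂)

lemma primrec_powW : Primrec₂ (powW : List (α × Bool) → ℕ → List (α × Bool)) := by
  unfold powW
  exact Primrec.nat_rec' (h := fun (p : List (α × Bool) × ℕ) (q : ℕ × List (α × Bool)) => p.1 ++ q.2)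
    snd (const []) (list_append.comp (fst.comp fst) (snd.comp snd)).to₂

lemma primrec_twW : Primrec₂
    (twW : List (α × Bool) × List (α × Bool) × List (α × Bool) → ℕ → List (α × Bool)) := by
  unfold twW
  have h1 : Primrec (fun p : (List (α × Bool) × List (α × Bool) × List (α × Bool)) × ℕ => p.1.1) :=
    fst.comp fst
  have h2 : Primrec (fun p : (List (α × Bool) × List (α × Bool) × List (α × Bool)) × ℕ =>
      p.1.2.1) := fst.comp (snd.comp fst)
  have h3 : Primrec (fun p : (List (α × Bool) × List (α × Bool) × List (α × Bool)) × ℕ =>
      p.1.2.2) := snd.comp (snd.comp fst)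
  have hk : Primrec (fun p : (List (α × Bool) × List (α × Bool) × List (α × Bool)) × ℕ => p.2) :=
    snd
  have hp : Primrec (fun p : (List (α × Bool) × List (α × Bool) × List (α × Bool)) × ℕ =>
      powW p.1.2.2 p.2) := primrec_powW.comp h3 hk
  have hq : Primrec (fun p : (List (α × Bool) × List (α × Bool) × List (α × Bool)) × ℕ =>
      powW (FreeGroup.invRev p.1.2.2) p.2) := primrec_powW.comp (primrec_invRev.comp h3) hk
  exact list_append.comp (list_append.comp (list_append.comp (list_append.comp (list_append.comp
    (list_append.comp (list_append.comp h1 hq) h2) hp) (primrec_invRev.comp h1)) hq)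
    (primrec_invRev.comp h2)) hp

/-- the diagonal set attached to a word problem `P` -/
def diagSet (P : List (α × Bool) → Prop) (k : ℕ) : Prop :=
  ∃ W : List (α × Bool) × List (α × Bool) × List (α × Bool),
    Encodable.decode k = some W ∧ ¬ P (twW W k)

lemma computablePred_diagSet {P : List (α × Bool) → Prop} (hP : ComputablePred P) :
    ComputablePred (diagSet P) := by
  obtain ⟨f, hf, rfl⟩ := ComputablePred.computable_iff.1 hP
  refine ComputablePred.computable_iff.2 ⟨fun k => Option.casesOn
    (Encodable.decode k : Option (List (α × Bool) × List (α × Bool) × List (α × Bool))) false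
    (fun W => !(f (twW W k))), ?_, ?_⟩
  · refine Computable.option_casesOn Computable.decode (Computable.const false) ?_
    exact (Primrec.not.to_comp.comp (hf.comp (primrec_twW.to_comp.comp Computable.snd
      Computable.fst))).to₂
  · funext k
    have aux : ∀ o : Option (List (α × Bool) × List (α × Bool) × List (α × Bool)),
        (∃ W, o = some W ∧ ¬ (f (twW W k) = true)) =
          ((Option.casesOn o false (fun W => !(f (twW W k))) : Bool) = true) := by
      intro o
      cases o
      · simp
      · simp
    exact aux _

end

/-- **Diagonal theorem.** For every group `U` generated by finitely many elements with decidable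
word problem there is a decidable set `D` such that `GD D` does not embed in `U`. -/
theorem exists_not_embed {U : Type*} [Group U] {n : ℕ} (g : Fin n → U)
    (hg : Subgroup.closure (Set.range g) = ⊤)
    (hP : ComputablePred (fun w : List (Fin n × Bool) => FreeGroup.lift g (FreeGroup.mk w) = 1)) :
    ∃ D : ℕ → Prop, ComputablePred D ∧ ¬ ∃ f : GD D →* U, Function.Injective f := by
  refine ⟨_, computablePred_diagSet hP, ?_⟩
  set D := diagSet (fun w : List (Fin n × Bool) => FreeGroup.lift g (FreeGroup.mk w) = 1) with hD
  rintro ⟨f, hf⟩
  have hsurj : ∀ y : U, ∃ w : List (Fin n × Bool), FreeGroup.lift g (FreeGroup.mk w) = y := by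
    intro y
    have : y ∈ (FreeGroup.lift g).range := by
      rw [FreeGroup.range_lift_eq_closure, hg]; trivial
    obtain ⟨x, rfl⟩ := this
    exact ⟨x.toWord, by rw [FreeGroup.mk_toWord]⟩
  obtain ⟨w1, h1⟩ := hsurj (f (genD D 0))
  obtain ⟨w2, h2⟩ := hsurj (f (genD D 1))
  obtain ⟨w3, h3⟩ := hsurj (f (genD D 2))
  set W : List (Fin n × Bool) × List (Fin n × Bool) × List (Fin n × Bool) := (w1, w2, w3) with hW
  set k := Encodable.encode W with hk
  have hval : FreeGroup.lift g (FreeGroup.mk (twW W k)) =
      f (tw (genD D 0) (genD D 1) (genD D 2) k) := by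
    rw [mk_twW, map_tw, map_tw, h1, h2, h3]
  have hiff : D k ↔ ¬ (FreeGroup.lift g (FreeGroup.mk (twW W k)) = 1) := by
    rw [hD]
    unfold diagSet
    constructor
    · rintro ⟨W', hW', hne⟩
      rw [hk, Encodable.encodek] at hW'
      have : W = W' := Option.some.inj hW'
      rw [this]
      exact hne
    · intro hne
      exact ⟨W, by rw [hk, Encodable.encodek], hne⟩
  rw [hval] at hiff
  have h4 : f (tw (genD D 0) (genD D 1) (genD D 2) k) = 1 ↔ D k := by
    rw [← tw_genD_eq_one_iff D k]
    constructor
    · intro h; exact hf (by rw [h, map_one])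
    · intro h; rw [h, map_one]
  rw [h4] at hiff
  exact (iff_not_self hiff)

end Vale.Agent.Lib.P193
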