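import Vale.Agent.Lib.P193.RE
import Vale.Agent.Lib.P193.Diag2

/-!
# P193: certificates for membership in a normal closure
-/

namespace Vale.Agent.Lib.P193

open Primrec

section

variable {α : Type*}

/-- a certificate item: conjugator, relator, sign -/
abbrev CItem (α : Type*) : Type _ := List (α × Bool) × List (α × Bool) × Bool

/-- the word spelled by an item -/
def itemWord (c : CItem α) : List (α × Bool) :=
  c.1 ++ (if c.2.2 = true then c.2.1 else FreeGroup.invRev c.2.1) ++ FreeGroup.invRev c.1

/-- the word spelled by a certificate -/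
def build (cs : List (CItem α)) : List (α × Bool) := cs.flatMap itemWord

/-- the value of an item in the free group -/
def cval (c : CItem α) : FreeGroup α :=
  FreeGroup.mk c.1 * (if c.2.2 = true then FreeGroup.mk c.2.1 else (FreeGroup.mk c.2.1)⁻¹) *
    (FreeGroup.mk c.1)⁻¹

lemma mk_itemWord (c : CItem α) : FreeGroup.mk (itemWord c) = cval c := by
  unfold itemWord cval
  rw [← FreeGroup.mul_mk, ← FreeGroup.mul_mk, FreeGroup.inv_mk]
  split_ifs
  · rfl
  · rw [FreeGroup.inv_mk]

lemma mk_build (cs : List (CItem α)) : FreeGroup.mk (build cs) = (cs.map cval).prod := by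
  induction cs with
  | nil => rfl
  | cons c cs ih =>
    have : build (c :: cs) = itemWord c ++ build cs := by simp [build]
    rw [this, ← FreeGroup.mul_mk, ih, mk_itemWord, List.map_cons, List.prod_cons]

/-- the set of group elements spelled by a list of words -/
def relSet (Rl : List (List (α × Bool))) : Set (FreeGroup α) := {x | ∃ r ∈ Rl, FreeGroup.mk r = x}

lemma cval_mem (Rl : List (List (α × Bool))) (c : CItem α) (hc : c.2.1 ∈ Rl) :
    cval c ∈ Subgroup.normalClosure (relSet Rl) := by
  unfold cval
  have h1 : FreeGroup.mk c.2.1 ∈ Subgroup.normalClosure (relSet Rl) :=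
    Subgroup.subset_normalClosure ⟨c.2.1, hc, rfl⟩
  apply Subgroup.normalClosure_normal.conj_mem
  split_ifs
  · exact h1
  · exact inv_mem h1

lemma mem_normalClosure_iff (Rl : List (List (α × Bool))) (x : FreeGroup α) :
    x ∈ Subgroup.normalClosure (relSet Rl) ↔
      ∃ cs : List (CItem α), (∀ c ∈ cs, c.2.1 ∈ Rl) ∧ FreeGroup.mk (build cs) = x := by
  constructor
  · intro hx
    unfold Subgroup.normalClosure at hx
    induction hx using Subgroup.closure_induction with
    | mem y hy =>
      rw [Group.mem_conjugatesOfSet_iff] at hy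
      obtain ⟨a, ⟨r, hr, rfl⟩, hconj⟩ := hy
      obtain ⟨g, hg⟩ := isConj_iff.mp hconj
      obtain ⟨t, rfl⟩ := Quot.exists_rep g
      refine ⟨[(t, r, true)], by simpa using hr, ?_⟩
      rw [mk_build]
      simpa [cval] using hg
    | one => exact ⟨[], by simp, rfl⟩
    | mul y z _ _ hy hz =>
      obtain ⟨cs, h1, rfl⟩ := hy
      obtain ⟨ds, h2, rfl⟩ := hz
      refine ⟨cs ++ ds, ?_, ?_⟩
      · intro c hc
        rcases List.mem_append.mp hc with h | h
        · exact h1 c h
        · exact h2 c h
      · rw [mk_build, mk_build, mk_build, List.map_append, List.prod_append]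
    | inv y _ hy =>
      obtain ⟨cs, h1, rfl⟩ := hy
      refine ⟨(cs.map (fun c => (c.1, c.2.1, !c.2.2))).reverse, ?_, ?_⟩
      · intro c hc
        rw [List.mem_reverse, List.mem_map] at hc
        obtain ⟨c', hc', rfl⟩ := hc
        exact h1 c' hc'
      · rw [mk_build, mk_build, List.prod_inv_reverse, List.map_reverse, List.map_map, List.map_map]
        congr 2
        apply List.map_congr_left
        intro c _
        simp only [Function.comp, cval]
        cases c.2.2 <;> simp
  · rintro ⟨cs, h1, rfl⟩
    rw [mk_build]
    apply Subgroup.list_prod_mem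
    intro y hy
    rw [List.mem_map] at hy
    obtain ⟨c, hc, rfl⟩ := hy
    exact cval_mem Rl c (h1 c hc)

end

section comp

variable {α : Type*} [Primcodable α] [DecidableEq α]

omit [DecidableEq α] in
lemma primrec_itemWord : Primrec (itemWord : CItem α → List (α × Bool)) := by
  unfold itemWord
  refine list_append.comp (list_append.comp fst ?_) (primrec_invRev.comp fst)
  exact Primrec.ite (Primrec.eq.comp (snd.comp snd) (const true)) (fst.comp snd)
    (primrec_invRev.comp (fst.comp snd))

omit [DecidableEq α] in
lemma primrec_build : Primrec (build : List (CItem α) → List (α × Bool)) := by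
  unfold build
  exact list_flatMap Primrec.id (primrec_itemWord.comp snd).to₂

/-- the decidable check of a certificate -/
def checkCert (p : List (List (α × Bool)) × List (α × Bool)) (cs : List (CItem α)) : Prop :=
  (∀ c ∈ cs, ∃ r ∈ p.1, r = c.2.1) ∧ FreeGroup.reduce (build cs) = FreeGroup.reduce p.2

lemma primrecRel_checkCert : PrimrecRel (checkCert (α := α)) := by
  unfold checkCert
  refine PrimrecPred.and ?_ ?_
  · have h1 : PrimrecRel (fun (r : List (α × Bool)) (c : CItem α) => r = c.2.1) :=
      Primrec.eq.comp fst (fst.comp (snd.comp snd))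
    have h2 : PrimrecRel (fun (L : List (List (α × Bool))) (c : CItem α) => ∃ r ∈ L, r = c.2.1) :=
      PrimrecRel.exists_mem_list h1
    have h3 : PrimrecRel (fun (c : CItem α) (L : List (List (α × Bool))) => ∃ r ∈ L, r = c.2.1) :=
      h2.comp snd fst
    exact (PrimrecRel.forall_mem_list h3).comp snd (fst.comp fst)
  · exact Primrec.eq.comp (primrec_reduce.comp (primrec_build.comp snd))
      (primrec_reduce.comp (snd.comp fst))

omit [Primcodable α] in
lemma mk_mem_iff_checkCert (p : List (List (α × Bool)) × List (α × Bool)) :
    FreeGroup.mk p.2 ∈ Subgroup.normalClosure (relSet p.1) ↔ ∃ cs, checkCert p cs := by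
  rw [mem_normalClosure_iff]
  unfold checkCert
  constructor
  · rintro ⟨cs, h1, h2⟩
    refine ⟨cs, fun c hc => ⟨c.2.1, h1 c hc, rfl⟩, ?_⟩
    have := congrArg FreeGroup.toWord h2
    simpa [FreeGroup.toWord_mk] using this
  · rintro ⟨cs, h1, h2⟩
    refine ⟨cs, fun c hc => ?_, FreeGroup.reduce.exact h2⟩
    obtain ⟨r, hr, rfl⟩ := h1 c hc
    exact hr

/-- Membership of a word in the normal closure of a finite list of words is recursively
enumerable, uniformly in the list. -/
theorem rePred_mem_normalClosure :
    REPred (fun p : List (List (α × Bool)) × List (α × Bool) =>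
      FreeGroup.mk p.2 ∈ Subgroup.normalClosure (relSet p.1)) := by
  classical
  obtain ⟨inst, h⟩ := primrecRel_checkCert (α := α)
  have hC : Computable₂ (fun (p : List (List (α × Bool)) × List (α × Bool))
      (cs : List (CItem α)) => decide (checkCert p cs)) := by
    have := h.to_comp
    exact this.of_eq fun q => by congr
  exact (rePred_exists hC).of_eq fun p => by
    rw [mk_mem_iff_checkCert]
    simp

end comp

end Vale.Agent.Lib.P193
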