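import Vale.Agent.Lib.P193.HallComp

/-!
# P193: the diagonal argument
-/

namespace Vale.Agent.Lib.P193

open LaurentPolynomial Gam

/-- the test element `[a, c^{-k} b c^k]` -/
def tw {H : Type*} [Group H] (a b c : H) (k : ℕ) : H :=
  a * (c⁻¹) ^ k * b * c ^ k * a⁻¹ * (c⁻¹) ^ k * b⁻¹ * c ^ k

lemma map_tw {H K : Type*} [Group H] [Group K] (f : H →* K) (a b c : H) (k : ℕ) :
    f (tw a b c k) = tw (f a) (f b) (f c) k := by
  simp [tw]

lemma gd_pow (k : ℕ) : gd ^ k = ⟨k, 0, 0, 0⟩ := by
  induction k with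
  | zero => rfl
  | succ k ih =>
    rw [pow_succ, ih]
    ext1 <;> simp [gd]

lemma gd_inv_pow (k : ℕ) : (gd⁻¹) ^ k = ⟨-k, 0, 0, 0⟩ := by
  induction k with
  | zero => simp; rfl
  | succ k ih =>
    rw [pow_succ, ih, gd_inv]
    ext1
    · simp; ring
    · simp
    · simp
    · simp

lemma tw_gens (k : ℕ) : tw gu gv gd k = ⟨0, 0, 0, T k⟩ := by
  unfold tw
  rw [gu_inv, gv_inv, gd_pow, gd_inv_pow]
  have h2 : ∀ r : RR, r + r = 0 := fun r => by
    have := neg_eq_self r
    calc r + r = r + -r := by rw [this]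
      _ = 0 := add_neg_cancel r
  ext1
  · simp [gu, gv]
  · simp [gu, gv, h2]
  · simp [gu, gv, h2]
  · simp [gu, gv, h2]

/-- the standard generators of `GD D` -/
noncomputable def genD (D : ℕ → Prop) (i : Fin 3) : GD D := QuotientGroup.mk (FreeGroup.of i)

lemma tw_genD_eq_one_iff (D : ℕ → Prop) (k : ℕ) :
    tw (genD D 0) (genD D 1) (genD D 2) k = 1 ↔ D k := by
  have h1 : tw (genD D 0) (genD D 1) (genD D 2) k =
      QuotientGroup.mk' (ND D) (tw (FreeGroup.of 0) (FreeGroup.of 1) (FreeGroup.of 2) k) := by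
    rw [map_tw]; rfl
  rw [h1, QuotientGroup.mk'_apply, QuotientGroup.eq_one_iff]
  unfold ND
  rw [Subgroup.mem_comap, map_tw]
  have h2 : phi (FreeGroup.of 0) = gu := by simp [phi, gens]
  have h3 : phi (FreeGroup.of 1) = gv := by simp [phi, gens]
  have h4 : phi (FreeGroup.of 2) = gd := by simp [phi, gens]
  rw [h2, h3, h4, tw_gens, mem_CD]
  simp only [true_and]
  constructor
  · intro h
    have := h (k : ℤ) (by rw [T_apply]; simp)
    simpa using this.2
  · intro h n hn
    rw [T_apply] at hn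
    have hk : (k : ℤ) = n := by
      by_contra hne
      simp [hne] at hn
    rw [← hk]
    exact ⟨by positivity, by simpa using h⟩

lemma lift_genD (D : ℕ → Prop) (x : FreeGroup (Fin 3)) :
    FreeGroup.lift (genD D) x = QuotientGroup.mk x := by
  have : FreeGroup.lift (genD D) = QuotientGroup.mk' (ND D) := by
    ext i; simp [genD]
  rw [this]; rfl

lemma closure_range_genD (D : ℕ → Prop) : Subgroup.closure (Set.range (genD D)) = ⊤ := by
  rw [← FreeGroup.range_lift_eq_closure, MonoidHom.range_eq_top]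
  intro y
  obtain ⟨x, rfl⟩ := QuotientGroup.mk_surjective y
  exact ⟨x, lift_genD D x⟩

section words

variable {α : Type*}

/-- powers of a word -/
def powW (w : List (α × Bool)) (k : ℕ) : List (α × Bool) := Nat.rec [] (fun _ ih => w ++ ih) k

lemma mk_powW (w : List (α × Bool)) (k : ℕ) : FreeGroup.mk (powW w k) = (FreeGroup.mk w) ^ k := by
  induction k with
  | zero => rfl
  | succ k ih =>
    have : powW w (k + 1) = w ++ powW w k := rfl
    rw [this, ← FreeGroup.mul_mk, ih, pow_succ']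

/-- the test word -/
def twW (W : List (α × Bool) × List (α × Bool) × List (α × Bool)) (k : ℕ) : List (α × Bool) :=
  W.1 ++ powW (FreeGroup.invRev W.2.2) k ++ W.2.1 ++ powW W.2.2 k ++ FreeGroup.invRev W.1 ++
    powW (FreeGroup.invRev W.2.2) k ++ FreeGroup.invRev W.2.1 ++ powW W.2.2 k

lemma mk_twW (W : List (α × Bool) × List (α × Bool) × List (α × Bool)) (k : ℕ) :
    FreeGroup.mk (twW W k) = tw (FreeGroup.mk W.1) (FreeGroup.mk W.2.1) (FreeGroup.mk W.2.2) k := by
  simp only [twW, tw, ← FreeGroup.mul_mk, mk_powW, FreeGroup.inv_mk]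

end words

end Vale.Agent.Lib.P193
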