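import Mathlib

/-!
# P193: a Hall-type family of finitely generated centre-by-metabelian groups

`Gam` is the group of matrices
`[[t^k, *, *], [0, 1, *], [0, 0, t^k]]` over the Laurent polynomial ring `F_2[t, t⁻¹]`,
written in the normal form `H(x,y,z) D(k)`.  Its centre contains all `H(0,0,z)`.
-/

namespace Vale.Agent.Lib.P193

open LaurentPolynomial

/-- The coefficient ring `F_2[t, t⁻¹]`. -/
abbrev RR : Type := LaurentPolynomial (ZMod 2)

/-- Elements `H(x,y,z) D(k)`. -/
@[ext] structure Gam where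
  k : ℤ
  x : RR
  y : RR
  z : RR

namespace Gam

lemma T_neg_mul_T (k : ℤ) : (T (-k) : RR) * T k = 1 := by
  rw [← T_add]; simp

lemma T_mul_T_neg (k : ℤ) : (T k : RR) * T (-k) = 1 := by
  rw [← T_add]; simp

noncomputable instance : Mul Gam where
  mul a b := ⟨a.k + b.k, a.x + T a.k * b.x, a.y + T (-a.k) * b.y, a.z + b.z + a.x * T (-a.k) * b.y⟩

noncomputable instance : One Gam where
  one := ⟨0, 0, 0, 0⟩

noncomputable instance : Inv Gam where
  inv a := ⟨-a.k, -(T (-a.k) * a.x), -(T a.k * a.y), -a.z + a.x * a.y⟩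

@[simp] lemma mul_k (a b : Gam) : (a * b).k = a.k + b.k := rfl
@[simp] lemma mul_x (a b : Gam) : (a * b).x = a.x + T a.k * b.x := rfl
@[simp] lemma mul_y (a b : Gam) : (a * b).y = a.y + T (-a.k) * b.y := rfl
@[simp] lemma mul_z (a b : Gam) : (a * b).z = a.z + b.z + a.x * T (-a.k) * b.y := rfl
@[simp] lemma one_k : (1 : Gam).k = 0 := rfl
@[simp] lemma one_x : (1 : Gam).x = 0 := rfl
@[simp] lemma one_y : (1 : Gam).y = 0 := rfl
@[simp] lemma one_z : (1 : Gam).z = 0 := rfl
@[simp] lemma inv_k (a : Gam) : (a⁻¹).k = -a.k := rfl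
@[simp] lemma inv_x (a : Gam) : (a⁻¹).x = -(T (-a.k) * a.x) := rfl
@[simp] lemma inv_y (a : Gam) : (a⁻¹).y = -(T a.k * a.y) := rfl
@[simp] lemma inv_z (a : Gam) : (a⁻¹).z = -a.z + a.x * a.y := rfl

noncomputable instance : Group Gam where
  mul_assoc a b c := by
    ext1
    · simp [add_assoc]
    · simp only [mul_x, mul_k, T_add]; ring
    · simp only [mul_y, mul_k, neg_add, T_add]; ring
    · simp only [mul_z, mul_x, mul_y, mul_k, neg_add, T_add]
      have h := T_neg_mul_T a.k
      linear_combination (b.x * T (-b.k) * c.y) * h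
  one_mul a := by ext1 <;> simp
  mul_one a := by ext1 <;> simp
  inv_mul_cancel a := by
    ext1
    · simp
    · simp
    · simp
    · simp only [mul_z, inv_z, inv_x, inv_k, neg_neg, one_z]
      have h := T_neg_mul_T a.k
      linear_combination (-(a.x * a.y)) * h

end Gam

end Vale.Agent.Lib.P193
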