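import Vale.Agent.Lib.P193.HallQuot

/-!
# P193: a combinatorial criterion for triviality of a word in `GD D`
-/

namespace Vale.Agent.Lib.P193

open LaurentPolynomial Gam

/-- number of entries of `X` coding the same integer as `e` -/
def cnt (X : List (ℕ × ℕ)) (e : ℕ × ℕ) : ℕ := (X.filter (fun e' => e'.1 + e.2 = e.1 + e'.2)).length

lemma val_eq_iff (e' e : ℕ × ℕ) : val e' = val e ↔ e'.1 + e.2 = e.1 + e'.2 := by
  simp only [val]; omega

lemma coeff_poly (X : List (ℕ × ℕ)) (n : ℤ) :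
    (poly X).coeff n = (((X.filter (fun e' => val e' = n)).length : ℕ) : ZMod 2) := by
  induction X with
  | nil => simp
  | cons e X ih =>
    rw [poly_cons, AddMonoidAlgebra.coeff_add, Finsupp.add_apply, ih, T_apply]
    by_cases h : val e = n
    · simp [h, add_comm]
    · simp [h]

lemma coeff_poly_val (X : List (ℕ × ℕ)) (e : ℕ × ℕ) :
    (poly X).coeff (val e) = ((cnt X e : ℕ) : ZMod 2) := by
  rw [coeff_poly, cnt]
  congr 2
  apply List.filter_congr
  intro e' _
  simp only [val_eq_iff]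

lemma coeff_poly_eq_zero_of_notMem (X : List (ℕ × ℕ)) (n : ℤ) (h : ∀ e ∈ X, val e ≠ n) :
    (poly X).coeff n = 0 := by
  rw [coeff_poly]
  have : X.filter (fun e' => val e' = n) = [] := by
    rw [List.filter_eq_nil_iff]
    intro e he
    simpa using h e he
  rw [this]; simp

lemma natCast_zmod_two_eq_zero_iff (m : ℕ) : ((m : ℕ) : ZMod 2) = 0 ↔ m % 2 = 0 := by
  rw [ZMod.natCast_eq_zero_iff]; omega

lemma poly_eq_zero_iff (X : List (ℕ × ℕ)) : poly X = 0 ↔ ∀ e ∈ X, cnt X e % 2 = 0 := by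
  constructor
  · intro h e _
    rw [← natCast_zmod_two_eq_zero_iff, ← coeff_poly_val, h]; simp
  · intro h
    rw [← AddMonoidAlgebra.coeff_eq_zero]
    ext n
    by_cases hn : ∃ e ∈ X, val e = n
    · obtain ⟨e, he, rfl⟩ := hn
      rw [coeff_poly_val, Finsupp.zero_apply, natCast_zmod_two_eq_zero_iff]
      exact h e he
    · push Not at hn
      simpa using coeff_poly_eq_zero_of_notMem X n hn

lemma poly_supp_iff (D : ℕ → Prop) (Z : List (ℕ × ℕ)) :
    (∀ n : ℤ, (poly Z).coeff n ≠ 0 → 0 ≤ n ∧ D n.toNat) ↔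
      ∀ e ∈ Z, cnt Z e % 2 = 0 ∨ (e.2 ≤ e.1 ∧ D (e.1 - e.2)) := by
  constructor
  · intro h e _
    by_cases hc : cnt Z e % 2 = 0
    · exact Or.inl hc
    · right
      have h1 : (poly Z).coeff (val e) ≠ 0 := by
        rw [coeff_poly_val, Ne, natCast_zmod_two_eq_zero_iff]; exact hc
      obtain ⟨h2, h3⟩ := h _ h1
      have h4 : e.2 ≤ e.1 := by simp only [val] at h2; omega
      refine ⟨h4, ?_⟩
      have : (val e).toNat = e.1 - e.2 := by simp only [val]; omega
      rwa [this] at h3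
  · intro h n hn
    by_cases hex : ∃ e ∈ Z, val e = n
    · obtain ⟨e, he, rfl⟩ := hex
      rcases h e he with h1 | ⟨h1, h2⟩
      · exfalso; apply hn
        rw [coeff_poly_val, natCast_zmod_two_eq_zero_iff]; exact h1
      · have : (val e).toNat = e.1 - e.2 := by simp only [val]; omega
        rw [this]
        refine ⟨?_, h2⟩
        simp only [val]; omega
    · push Not at hex
      exact absurd (coeff_poly_eq_zero_of_notMem Z n hex) hn

/-- the combinatorial criterion -/
lemma mem_ND_iff (D : ℕ → Prop) (w : List (Fin 3 × Bool)) :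
    FreeGroup.mk w ∈ ND D ↔
      (run w).1.1 = (run w).1.2 ∧ (∀ e ∈ (run w).2.1, cnt (run w).2.1 e % 2 = 0) ∧
      (∀ e ∈ (run w).2.2.1, cnt (run w).2.2.1 e % 2 = 0) ∧
      ∀ e ∈ (run w).2.2.2, cnt (run w).2.2.2 e % 2 = 0 ∨ (e.2 ≤ e.1 ∧ D (e.1 - e.2)) := by
  unfold ND
  rw [Subgroup.mem_comap, phi_mk, mem_CD]
  simp only [interp]
  rw [poly_eq_zero_iff, poly_eq_zero_iff, poly_supp_iff]
  have : val (run w).1 = 0 ↔ (run w).1.1 = (run w).1.2 := by simp only [val]; omega
  rw [this]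

end Vale.Agent.Lib.P193
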