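import Vale.Agent.Lib.P193.HallCheck

/-!
# P193: the word problem of `GD D` is decidable when `D` is
-/

namespace Vale.Agent.Lib.P193

open Primrec

lemma primrec_step : Primrec₂ step := by
  have hl1 : Primrec (fun p : St × (Fin 3 × Bool) => p.2.1) := fst.comp snd
  have hl2 : Primrec (fun p : St × (Fin 3 × Bool) => p.2.2) := snd.comp snd
  have hk : Primrec (fun p : St × (Fin 3 × Bool) => p.1.1) := fst.comp fst
  have hk1 : Primrec (fun p : St × (Fin 3 × Bool) => p.1.1.1) := fst.comp hk
  have hk2 : Primrec (fun p : St × (Fin 3 × Bool) => p.1.1.2) := snd.comp hk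
  have hX : Primrec (fun p : St × (Fin 3 × Bool) => p.1.2.1) := fst.comp (snd.comp fst)
  have hY : Primrec (fun p : St × (Fin 3 × Bool) => p.1.2.2.1) :=
    fst.comp (snd.comp (snd.comp fst))
  have hZ : Primrec (fun p : St × (Fin 3 × Bool) => p.1.2.2.2) :=
    snd.comp (snd.comp (snd.comp fst))
  have hmap : Primrec (fun p : St × (Fin 3 × Bool) =>
      p.1.2.1.map (fun e => (e.1 + p.1.1.2, e.2 + p.1.1.1))) := by
    refine list_map hX ?_
    exact Primrec.pair (nat_add.comp (fst.comp snd) (hk2.comp fst))
      (nat_add.comp (snd.comp snd) (hk1.comp fst))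
  refine Primrec.ite (Primrec.eq.comp hl1 (const 0)) ?_ (Primrec.ite (Primrec.eq.comp hl1 (const 1)) ?_
    (Primrec.ite (Primrec.eq.comp hl2 (const true)) ?_ ?_))
  · exact hk.pair ((list_cons.comp hk hX).pair (hY.pair hZ))
  · exact hk.pair (hX.pair ((list_cons.comp (hk2.pair hk1) hY).pair (list_append.comp hmap hZ)))
  · exact ((succ.comp hk1).pair hk2).pair (hX.pair (hY.pair hZ))
  · exact (hk1.pair (succ.comp hk2)).pair (hX.pair (hY.pair hZ))

lemma primrec_run : Primrec run :=
  list_foldl Primrec.id (const st0) (primrec_step.comp (fst.comp snd) (snd.comp snd)).to₂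

lemma primrec_cnt : Primrec₂ cnt := by
  have hR : PrimrecRel (fun (e' e : ℕ × ℕ) => e'.1 + e.2 = e.1 + e'.2) :=
    Primrec.eq.comp (nat_add.comp (fst.comp fst) (snd.comp snd))
      (nat_add.comp (fst.comp snd) (snd.comp fst))
  exact list_length.comp₂ (PrimrecRel.listFilter hR)

/-- `cnt X e` is even -/
lemma primrecRel_even : PrimrecRel (fun (e : ℕ × ℕ) (X : List (ℕ × ℕ)) => cnt X e % 2 = 0) :=
  Primrec.eq.comp (nat_mod.comp (primrec_cnt.comp snd fst) (const 2)) (const 0)

lemma primrecPred_balanced : PrimrecPred (fun X : List (ℕ × ℕ) => ∀ e ∈ X, cnt X e % 2 = 0) :=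
  (PrimrecRel.forall_mem_list primrecRel_even).comp Primrec.id Primrec.id

/-- auxiliary recursion computing `(l.take i).all f` -/
def allAux (f : ℕ → Bool) (l : List ℕ) (i : ℕ) : Bool :=
  Nat.rec true (fun j ih => ih && (Option.casesOn (l[j]?) true f)) i

lemma allAux_eq (f : ℕ → Bool) (l : List ℕ) (i : ℕ) : allAux f l i = (l.take i).all f := by
  induction i with
  | zero => simp [allAux]
  | succ i ih =>
    have h1 : allAux f l (i + 1) = (allAux f l i && (Option.casesOn (l[i]?) true f)) := rfl
    rw [h1, ih, List.take_add_one, List.all_append]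
    congr 1
    cases l[i]? <;> simp

lemma computable_all {f : ℕ → Bool} (hf : Computable f) :
    Computable (fun l : List ℕ => l.all f) := by
  have h : Computable (fun l : List ℕ => allAux f l l.length) := by
    unfold allAux
    refine Computable.nat_rec (h := fun (l : List ℕ) (p : ℕ × Bool) =>
      (p.2 && (Option.casesOn (l[p.1]?) true f : Bool)))
      (Computable.list_length (α := ℕ)) (Computable.const true) ?_
    have h1 : Computable (fun p : List ℕ × ℕ × Bool => (p.1)[p.2.1]?) :=
      Computable.list_getElem?.comp Computable.fst (Computable.fst.comp Computable.snd)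
    have h2 : Computable (fun p : List ℕ × ℕ × Bool =>
        (Option.casesOn ((p.1)[p.2.1]?) true f : Bool)) :=
      Computable.option_casesOn h1 (Computable.const true) (hf.comp Computable.snd).to₂
    exact (Primrec.and.to_comp.comp (Computable.snd.comp Computable.snd) h2).to₂
  refine h.of_eq fun l => ?_
  rw [allAux_eq, List.take_length]

lemma computablePred_forall_mem {D : ℕ → Prop} (hD : ComputablePred D) :
    ComputablePred (fun l : List ℕ => ∀ n ∈ l, D n) := by
  obtain ⟨f, hf, rfl⟩ := ComputablePred.computable_iff.1 hD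
  refine ComputablePred.computable_iff.2 ⟨fun l => l.all f, computable_all hf, ?_⟩
  funext l
  simp [List.all_eq_true]

/-- entries of `Z` occurring an odd number of times -/
def bad (Z : List (ℕ × ℕ)) : List (ℕ × ℕ) := Z.filter (fun e => ¬ (cnt Z e % 2 = 0))

lemma primrec_bad : Primrec bad :=
  (PrimrecRel.listFilter (R := fun (e : ℕ × ℕ) (X : List (ℕ × ℕ)) => ¬ (cnt X e % 2 = 0))
    primrecRel_even.not).comp Primrec.id Primrec.id

lemma zcheck_iff (D : ℕ → Prop) (Z : List (ℕ × ℕ)) :
    (∀ e ∈ Z, cnt Z e % 2 = 0 ∨ (e.2 ≤ e.1 ∧ D (e.1 - e.2))) ↔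
      (∀ e ∈ bad Z, e.2 ≤ e.1) ∧ ∀ n ∈ (bad Z).map (fun e => e.1 - e.2), D n := by
  simp only [bad, List.mem_filter, List.mem_map, decide_eq_true_eq]
  constructor
  · intro h
    refine ⟨fun e he => ?_, ?_⟩
    · rcases h e he.1 with h1 | h1
      · exact absurd h1 he.2
      · exact h1.1
    · rintro n ⟨e, he, rfl⟩
      rcases h e he.1 with h1 | h1
      · exact absurd h1 he.2
      · exact h1.2
  · rintro ⟨h1, h2⟩ e he
    by_cases hc : cnt Z e % 2 = 0
    · exact Or.inl hc
    · exact Or.inr ⟨h1 e ⟨he, hc⟩, h2 _ ⟨e, ⟨he, hc⟩, rfl⟩⟩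

lemma ComputablePred.and' {α : Type*} [Primcodable α] {p q : α → Prop} (hp : ComputablePred p)
    (hq : ComputablePred q) : ComputablePred (fun a => p a ∧ q a) := by
  obtain ⟨f, hf, rfl⟩ := ComputablePred.computable_iff.1 hp
  obtain ⟨g, hg, rfl⟩ := ComputablePred.computable_iff.1 hq
  refine ComputablePred.computable_iff.2 ⟨fun a => f a && g a, Primrec.and.to_comp.comp hf hg, ?_⟩
  funext a
  simp

lemma ComputablePred.comp' {α β : Type*} [Primcodable α] [Primcodable β] {p : β → Prop}
    (hp : ComputablePred p) {g : α → β} (hg : Computable g) : ComputablePred (fun a => p (g a)) := by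
  obtain ⟨f, hf, rfl⟩ := ComputablePred.computable_iff.1 hp
  exact ComputablePred.computable_iff.2 ⟨fun a => f (g a), hf.comp hg, rfl⟩

/-- The word problem of `GD D` (on its three standard generators) is decidable if `D` is. -/
theorem computablePred_mem_ND {D : ℕ → Prop} (hD : ComputablePred D) :
    ComputablePred (fun w : List (Fin 3 × Bool) => FreeGroup.mk w ∈ ND D) := by
  have hrun : Computable run := primrec_run.to_comp
  have h1 : ComputablePred (fun w : List (Fin 3 × Bool) => (run w).1.1 = (run w).1.2) :=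
    PrimrecPred.computablePred
      (Primrec.eq.comp (fst.comp (fst.comp primrec_run)) (snd.comp (fst.comp primrec_run)))
  have h2 : ComputablePred (fun w : List (Fin 3 × Bool) =>
      ∀ e ∈ (run w).2.1, cnt (run w).2.1 e % 2 = 0) :=
    PrimrecPred.computablePred (primrecPred_balanced.comp (fst.comp (snd.comp primrec_run)))
  have h3 : ComputablePred (fun w : List (Fin 3 × Bool) =>
      ∀ e ∈ (run w).2.2.1, cnt (run w).2.2.1 e % 2 = 0) :=
    PrimrecPred.computablePred
      (primrecPred_balanced.comp (fst.comp (snd.comp (snd.comp primrec_run))))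
  have hZ : Primrec (fun w : List (Fin 3 × Bool) => (run w).2.2.2) :=
    snd.comp (snd.comp (snd.comp primrec_run))
  have h4 : ComputablePred (fun w : List (Fin 3 × Bool) => ∀ e ∈ bad (run w).2.2.2, e.2 ≤ e.1) := by
    have hp : PrimrecPred (fun L : List (ℕ × ℕ) => ∀ e ∈ L, e.2 ≤ e.1) :=
      PrimrecPred.forall_mem_list (Primrec.nat_le.comp snd fst)
    exact PrimrecPred.computablePred (hp.comp (primrec_bad.comp hZ))
  have h5 : ComputablePred (fun w : List (Fin 3 × Bool) =>
      ∀ n ∈ (bad (run w).2.2.2).map (fun e => e.1 - e.2), D n) := by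
    have hm : Primrec (fun w : List (Fin 3 × Bool) =>
        (bad (run w).2.2.2).map (fun e => e.1 - e.2)) :=
      list_map (primrec_bad.comp hZ) (nat_sub.comp (fst.comp snd) (snd.comp snd)).to₂
    exact ComputablePred.comp' (computablePred_forall_mem hD) hm.to_comp
  refine ComputablePred.of_eq
    (ComputablePred.and' h1 (ComputablePred.and' h2 (ComputablePred.and' h3
      (ComputablePred.and' h4 h5)))) fun w => ?_
  rw [mem_ND_iff, zcheck_iff]

end Vale.Agent.Lib.P193
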