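import Vale.Agent.Lib.P193.Hall

/-!
# P193: the groups `GD D` and the evaluation of words by a list machine
-/

namespace Vale.Agent.Lib.P193

open LaurentPolynomial

namespace Gam

/-- the generators -/
noncomputable def gu : Gam := ⟨0, 1, 0, 0⟩
noncomputable def gv : Gam := ⟨0, 0, 1, 0⟩
noncomputable def gd : Gam := ⟨1, 0, 0, 0⟩

lemma neg_eq_self (r : RR) : -r = r := by
  have h2 : (2 : RR) = 0 := by
    have : ((2 : ZMod 2) : ZMod 2) = 0 := by decide
    have h3 : (2 : RR) = C (2 : ZMod 2) := (map_ofNat C 2).symm
    rw [h3, this, map_zero]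
  have : r + r = 0 := by rw [← two_mul, h2, zero_mul]
  exact neg_eq_of_add_eq_zero_left this

lemma gu_inv : gu⁻¹ = gu := by
  ext1 <;> simp [gu, neg_eq_self]

lemma gv_inv : gv⁻¹ = gv := by
  ext1 <;> simp [gv, neg_eq_self]

lemma gd_inv : gd⁻¹ = ⟨-1, 0, 0, 0⟩ := by
  ext1 <;> simp [gd]

/-- the generating triple -/
noncomputable def gens : Fin 3 → Gam := ![gu, gv, gd]

/-- The central subgroup killed in `GD D`: elements `H(0,0,z)` such that `z` is supported on
nonnegative exponents belonging to `D`. -/
def CD (D : ℕ → Prop) : Subgroup Gam where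
  carrier := {a | a.k = 0 ∧ a.x = 0 ∧ a.y = 0 ∧ ∀ n : ℤ, a.z.coeff n ≠ 0 → 0 ≤ n ∧ D n.toNat}
  mul_mem' := by
    rintro a b ⟨ha1, ha2, ha3, ha4⟩ ⟨hb1, hb2, hb3, hb4⟩
    refine ⟨by simp [ha1, hb1], by simp [ha2, hb2], by simp [ha3, hb3], ?_⟩
    intro n hn
    simp only [mul_z, ha2, zero_mul, add_zero, AddMonoidAlgebra.coeff_add, Finsupp.add_apply] at hn
    by_cases h : a.z.coeff n = 0
    · rw [h, zero_add] at hn; exact hb4 n hn
    · exact ha4 n h
  one_mem' := by simp
  inv_mem' := by
    rintro a ⟨ha1, ha2, ha3, ha4⟩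
    refine ⟨by simp [ha1], by simp [ha2], by simp [ha3], ?_⟩
    intro n hn
    simp only [inv_z, ha2, zero_mul, add_zero, neg_eq_self] at hn
    exact ha4 n hn

lemma mem_CD {D : ℕ → Prop} {a : Gam} : a ∈ CD D ↔
    a.k = 0 ∧ a.x = 0 ∧ a.y = 0 ∧ ∀ n : ℤ, a.z.coeff n ≠ 0 → 0 ≤ n ∧ D n.toNat := Iff.rfl

lemma central_of_mem {D : ℕ → Prop} {a : Gam} (ha : a ∈ CD D) (g : Gam) : g * a = a * g := by
  obtain ⟨h1, h2, h3, -⟩ := ha
  ext1
  · simp [h1]
  · simp [h1, h2]
  · simp [h1, h3]
  · simp [h1, h2, h3, add_comm]

instance (D : ℕ → Prop) : (CD D).Normal where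
  conj_mem a ha g := by
    rw [central_of_mem ha g, mul_assoc, mul_inv_cancel, mul_one]; exact ha

end Gam

open Gam

/-- evaluation of the free group on three letters in `Gam` -/
noncomputable def phi : FreeGroup (Fin 3) →* Gam := FreeGroup.lift gens

/-- the normal subgroup of relations of `GD D` -/
noncomputable def ND (D : ℕ → Prop) : Subgroup (FreeGroup (Fin 3)) := (CD D).comap phi

instance (D : ℕ → Prop) : (ND D).Normal := by unfold ND; infer_instance

/-- The three-generator group `GD D`. -/
abbrev GD (D : ℕ → Prop) : Type := FreeGroup (Fin 3) ⧸ ND D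

/-- integer coded by a pair of naturals -/
def val (e : ℕ × ℕ) : ℤ := (e.1 : ℤ) - (e.2 : ℤ)

/-- Laurent polynomial coded by a list of exponents -/
noncomputable def poly (X : List (ℕ × ℕ)) : RR := (X.map (fun e => (T (val e) : RR))).sum

@[simp] lemma poly_nil : poly [] = 0 := rfl
@[simp] lemma poly_cons (e : ℕ × ℕ) (X : List (ℕ × ℕ)) : poly (e :: X) = T (val e) + poly X := by
  simp [poly]
@[simp] lemma poly_append (X Y : List (ℕ × ℕ)) : poly (X ++ Y) = poly X + poly Y := by
  simp [poly]

lemma poly_map_shift (X : List (ℕ × ℕ)) (k : ℕ × ℕ) :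
    poly (X.map (fun e => (e.1 + k.2, e.2 + k.1))) = poly X * T (-(val k)) := by
  induction X with
  | nil => simp
  | cons e X ih =>
    simp only [List.map_cons, poly_cons, ih, add_mul, ← T_add]
    congr 2
    simp only [val]; push_cast; ring

/-- state of the list machine: height, and exponent lists for `x`, `y`, `z` -/
abbrev St : Type := (ℕ × ℕ) × List (ℕ × ℕ) × List (ℕ × ℕ) × List (ℕ × ℕ)

/-- one step of the list machine: multiply on the right by a letter -/
def step (s : St) (l : Fin 3 × Bool) : St :=
  if l.1 = 0 then (s.1, s.1 :: s.2.1, s.2.2.1, s.2.2.2)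
  else if l.1 = 1 then
    (s.1, s.2.1, (s.1.2, s.1.1) :: s.2.2.1,
      (s.2.1.map (fun e => (e.1 + s.1.2, e.2 + s.1.1))) ++ s.2.2.2)
  else if l.2 then ((s.1.1 + 1, s.1.2), s.2.1, s.2.2.1, s.2.2.2)
  else ((s.1.1, s.1.2 + 1), s.2.1, s.2.2.1, s.2.2.2)

/-- the element of `Gam` coded by a state -/
noncomputable def interp (s : St) : Gam := ⟨val s.1, poly s.2.1, poly s.2.2.1, poly s.2.2.2⟩

/-- the value of a letter -/
noncomputable def letter (l : Fin 3 × Bool) : Gam := bif l.2 then gens l.1 else (gens l.1)⁻¹

lemma interp_step (s : St) (l : Fin 3 × Bool) : interp (step s l) = interp s * letter l := by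
  obtain ⟨i, b⟩ := l
  fin_cases i
  · have hl : letter ((0 : Fin 3), b) = gu := by
      cases b <;> simp [letter, gens, gu_inv]
    change interp (step s (0, b)) = interp s * letter (0, b)
    rw [hl]
    ext1 <;> simp [interp, step, gu, add_comm]
  · have hl : letter ((1 : Fin 3), b) = gv := by
      cases b <;> simp [letter, gens, gv_inv]
    change interp (step s (1, b)) = interp s * letter (1, b)
    rw [hl]
    ext1
    · simp [interp, step, gv]
    · simp [interp, step, gv]
    · simp only [interp, step, gv]
      simp only [Fin.isValue, one_ne_zero, if_false, if_true, poly_cons, mul_y, mul_one]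
      rw [add_comm]
      congr 2
      simp [val]
    · simp only [interp, step, gv]
      simp only [Fin.isValue, one_ne_zero, if_false, if_true, poly_append, mul_z, mul_one, add_zero,
        poly_map_shift]
      rw [add_comm]
  · cases b
    · have hl : letter ((2 : Fin 3), false) = ⟨-1, 0, 0, 0⟩ := by
        simp [letter, gens, gd_inv]
      change interp (step s (2, false)) = interp s * letter (2, false)
      rw [hl]
      ext1
      · simp [interp, step, val]; ring
      · simp [interp, step]
      · simp [interp, step]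
      · simp [interp, step]
    · have hl : letter ((2 : Fin 3), true) = gd := by
        simp [letter, gens]
      change interp (step s (2, true)) = interp s * letter (2, true)
      rw [hl]
      ext1
      · simp [interp, step, val, gd]; ring
      · simp [interp, step, gd]
      · simp [interp, step, gd]
      · simp [interp, step, gd]

/-- initial state -/
def st0 : St := ((0, 0), [], [], [])

lemma interp_st0 : interp st0 = 1 := by
  ext1 <;> simp [interp, st0, val]

/-- run the machine on a word -/
def run (w : List (Fin 3 × Bool)) : St := w.foldl step st0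

lemma interp_foldl (s : St) (w : List (Fin 3 × Bool)) :
    interp (w.foldl step s) = interp s * (w.map letter).prod := by
  induction w generalizing s with
  | nil => simp
  | cons l w ih => rw [List.foldl_cons, ih, interp_step, List.map_cons, List.prod_cons, mul_assoc]

lemma phi_mk (w : List (Fin 3 × Bool)) : phi (FreeGroup.mk w) = interp (run w) := by
  rw [run, interp_foldl, interp_st0, one_mul, phi, FreeGroup.lift_mk]
  rfl

end Vale.Agent.Lib.P193
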