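import Vale.Agent.Lib.P193.Cert

/-!
# P193: Kuznetsov's theorem (finitely presented simple groups have decidable word problem)
-/

namespace Vale.Agent.Lib.P193

section

variable {α : Type*}

lemma relSet_cons (w : List (α × Bool)) (Rl : List (List (α × Bool))) :
    relSet (w :: Rl) = {FreeGroup.mk w} ∪ relSet Rl := by
  ext x
  simp only [relSet, List.mem_cons, Set.mem_union, Set.mem_singleton_iff]
  constructor
  · rintro ⟨r, rfl | hr, rfl⟩
    · exact Or.inl rfl
    · exact Or.inr ⟨r, hr, rfl⟩
  · rintro (rfl | ⟨r, hr, rfl⟩)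
    · exact ⟨w, Or.inl rfl, rfl⟩
    · exact ⟨r, Or.inr hr, rfl⟩

lemma exists_relSet_eq [DecidableEq α] (R : Set (FreeGroup α)) (hR : R.Finite) :
    ∃ Rl : List (List (α × Bool)), relSet Rl = R := by
  refine ⟨hR.toFinset.toList.map FreeGroup.toWord, ?_⟩
  ext x
  simp only [relSet, List.mem_map, Finset.mem_toList, Set.Finite.mem_toFinset]
  constructor
  · rintro ⟨r, ⟨y, hy, rfl⟩, rfl⟩
    rwa [FreeGroup.mk_toWord]
  · intro hx
    exact ⟨x.toWord, ⟨x, hx, rfl⟩, FreeGroup.mk_toWord⟩

end

/-- the simple-group trick: nontriviality of `φ x` is witnessed positively -/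
lemma ne_one_iff_mem_normalClosure {F S : Type*} [Group F] [Group S] [IsSimpleGroup S]
    (φ : F →* S) (hφ : Function.Surjective φ) (R : Set F) (hR : φ.ker = Subgroup.normalClosure R)
    (x0 : F) (hx0 : φ x0 ≠ 1) (x : F) :
    φ x ≠ 1 ↔ x0 ∈ Subgroup.normalClosure ({x} ∪ R) := by
  constructor
  · intro hx
    set N := Subgroup.normalClosure ({x} ∪ R) with hN
    have hker : φ.ker ≤ N := by
      rw [hR]; exact Subgroup.normalClosure_mono Set.subset_union_right
    have hnorm : (N.map φ).Normal := Subgroup.Normal.map Subgroup.normalClosure_normal φ hφ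
    have hxN : x ∈ N := Subgroup.subset_normalClosure (Or.inl rfl)
    have htop : N.map φ = ⊤ := by
      rcases hnorm.eq_bot_or_eq_top with h | h
      · exfalso
        apply hx
        have : φ x ∈ N.map φ := Subgroup.mem_map_of_mem φ hxN
        rw [h] at this
        exact Subgroup.mem_bot.mp this
      · exact h
    have : φ x0 ∈ N.map φ := by rw [htop]; trivial
    obtain ⟨y, hy, hyx⟩ := Subgroup.mem_map.mp this
    have h2 : y⁻¹ * x0 ∈ φ.ker := by
      rw [MonoidHom.mem_ker, map_mul, map_inv, hyx, inv_mul_cancel]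
    have h3 : x0 = y * (y⁻¹ * x0) := by group
    rw [h3]
    exact N.mul_mem hy (hker h2)
  · intro hmem hx
    apply hx0
    have hle : Subgroup.normalClosure ({x} ∪ R) ≤ φ.ker := by
      apply Subgroup.normalClosure_le_normal
      rintro y (hy | hy)
      · rw [Set.mem_singleton_iff.mp hy]; exact hx
      · rw [hR]; exact Subgroup.subset_normalClosure hy
    exact hle hmem

/-- **Kuznetsov's theorem**, in the form needed here. -/
theorem kuznetsov {S : Type*} [Group S] [IsSimpleGroup S] {n : ℕ} (φ : FreeGroup (Fin n) →* S)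
    (hφ : Function.Surjective φ) (hker : φ.ker.IsFinitelyNormallyGenerated) :
    ComputablePred (fun w : List (Fin n × Bool) => φ (FreeGroup.mk w) = 1) := by
  obtain ⟨R, hRfin, hR⟩ := hker
  obtain ⟨Rl, hRl⟩ := exists_relSet_eq R hRfin
  obtain ⟨s0, hs0⟩ := exists_ne (1 : S)
  obtain ⟨x0, hx0⟩ := hφ s0
  rw [ComputablePred.computable_iff_re_compl_re']
  constructor
  · have h := REPred.comp' (rePred_mem_normalClosure (α := Fin n))
      (g := fun w : List (Fin n × Bool) => (Rl, w))
      ((Computable.const Rl).pair Computable.id)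
    refine h.of_eq fun w => ?_
    simp only
    rw [hRl, hR, MonoidHom.mem_ker]
  · have h := REPred.comp' (rePred_mem_normalClosure (α := Fin n))
      (g := fun w : List (Fin n × Bool) => (w :: Rl, x0.toWord))
      ((Computable.list_cons.comp Computable.id (Computable.const Rl)).pair
        (Computable.const x0.toWord))
    refine h.of_eq fun w => ?_
    simp only
    rw [relSet_cons, hRl, FreeGroup.mk_toWord]
    exact (ne_one_iff_mem_normalClosure φ hφ R hR.symm x0 (by rw [hx0]; exact hs0) _).symm

end Vale.Agent.Lib.P193
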