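import Mathlib

/-!
# P193: recursive enumerability of normal closures in free groups
-/

namespace Vale.Agent.Lib.P193

open Primrec

section general

variable {α γ : Type*} [Primcodable α] [Primcodable γ]

/-- projection of a decidable relation is recursively enumerable -/
lemma rePred_exists {C : α → γ → Bool} (hC : Computable₂ C) :
    REPred (fun a => ∃ c, C a c = true) := by
  let q : α → ℕ → Bool := fun a n => Option.casesOn (Encodable.decode n : Option γ) false (C a)
  have hq : Computable₂ q := by
    refine Computable.option_casesOn (Computable.decode.comp Computable.snd)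
      (Computable.const false) ?_
    exact (hC.comp (Computable.fst.comp Computable.fst) Computable.snd).to₂
  have hp : Partrec₂ (fun a n => (Part.some (q a n) : Part Bool)) := hq.partrec₂
  refine (Partrec.rfind hp).dom_re.of_eq fun a => ?_
  refine (Nat.rfind_dom (p := fun n => (Part.some (q a n) : Part Bool))).trans ?_
  constructor
  · rintro ⟨n, hn, -⟩
    have hn' : q a n = true := by simpa using hn
    simp only [q] at hn'
    cases h : (Encodable.decode n : Option γ) with
    | none => rw [h] at hn'; simp at hn'
    | some c => rw [h] at hn'; exact ⟨c, hn'⟩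
  · rintro ⟨c, hc⟩
    refine ⟨Encodable.encode c, ?_, fun _ => trivial⟩
    simp [q, hc]

lemma REPred.comp' {β : Type*} [Primcodable β] {p : β → Prop} (hp : REPred p) {g : α → β}
    (hg : Computable g) : REPred (fun a => p (g a)) :=
  Partrec.comp hp hg

end general

section reduce

variable {α : Type*} [Primcodable α] [DecidableEq α]

lemma primrec_reduce : Primrec (FreeGroup.reduce : List (α × Bool) → List (α × Bool)) := by
  unfold FreeGroup.reduce
  refine Primrec.list_rec (h := fun (_ : List (α × Bool))
      (p : (α × Bool) × List (α × Bool) × List (α × Bool)) =>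
      (List.casesOn p.2.2 [p.1] fun hd2 tl2 =>
        if p.1.1 = hd2.1 ∧ p.1.2 = !hd2.2 then tl2 else p.1 :: hd2 :: tl2 : List (α × Bool)))
    Primrec.id (const []) ?_
  refine Primrec.list_casesOn (h := fun (p : List (α × Bool) ×
      ((α × Bool) × List (α × Bool) × List (α × Bool))) (r : (α × Bool) × List (α × Bool)) =>
      if p.2.1.1 = r.1.1 ∧ p.2.1.2 = !r.1.2 then r.2 else p.2.1 :: r.1 :: r.2)
    (snd.comp (snd.comp snd)) ?_ ?_
  · exact list_cons.comp (fst.comp snd) (const [])
  · have hhd1 : Primrec (fun q : (List (α × Bool) × ((α × Bool) × List (α × Bool) ×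
        List (α × Bool))) × ((α × Bool) × List (α × Bool)) => q.1.2.1) := fst.comp (snd.comp fst)
    have hhd2 : Primrec (fun q : (List (α × Bool) × ((α × Bool) × List (α × Bool) ×
        List (α × Bool))) × ((α × Bool) × List (α × Bool)) => q.2.1) := fst.comp snd
    have htl2 : Primrec (fun q : (List (α × Bool) × ((α × Bool) × List (α × Bool) ×
        List (α × Bool))) × ((α × Bool) × List (α × Bool)) => q.2.2) := snd.comp snd
    refine Primrec.ite (PrimrecPred.and (Primrec.eq.comp (fst.comp hhd1) (fst.comp hhd2))
      (Primrec.eq.comp (snd.comp hhd1) (Primrec.not.comp (snd.comp hhd2)))) htl2 ?_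
    exact list_cons.comp hhd1 (list_cons.comp hhd2 htl2)

end reduce

end Vale.Agent.Lib.P193
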