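import Vale.Agent.Lib.P193.HallQuot

/-!
# P193: the groups `GD D` are solvable
-/

namespace Vale.Agent.Lib.P193

open LaurentPolynomial Gam

/-- projection of `Gam` to the infinite cyclic group -/
noncomputable def projK : Gam →* Multiplicative ℤ where
  toFun a := Multiplicative.ofAdd a.k
  map_one' := rfl
  map_mul' _ _ := rfl

lemma mem_ker_projK (a : Gam) : a ∈ projK.ker ↔ a.k = 0 := by
  rw [MonoidHom.mem_ker]; rfl

/-- projection of the kernel to the abelian group `RR × RR` -/
noncomputable def projXY : projK.ker →* Multiplicative (RR × RR) where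
  toFun a := Multiplicative.ofAdd (a.1.x, a.1.y)
  map_one' := rfl
  map_mul' a b := by
    have ha : a.1.k = 0 := (mem_ker_projK _).mp a.2
    rw [← ofAdd_add]
    congr 1
    ext1 <;> simp [ha]

lemma mem_ker_projXY (a : projK.ker) : a ∈ projXY.ker ↔ a.1.x = 0 ∧ a.1.y = 0 := by
  rw [MonoidHom.mem_ker]
  show Multiplicative.ofAdd (a.1.x, a.1.y) = Multiplicative.ofAdd 0 ↔ _
  rw [Multiplicative.ofAdd.injective.eq_iff, Prod.mk_eq_zero]

instance : Group.IsSolvable projXY.ker := by
  apply Group.isSolvable_of_comm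
  rintro ⟨a, ha⟩ ⟨b, hb⟩
  have ha0 : a.1.k = 0 := (mem_ker_projK _).mp a.2
  have hb0 : b.1.k = 0 := (mem_ker_projK _).mp b.2
  obtain ⟨ha1, ha2⟩ := (mem_ker_projXY a).mp ha
  obtain ⟨hb1, hb2⟩ := (mem_ker_projXY b).mp hb
  apply Subtype.ext
  apply Subtype.ext
  show a.1 * b.1 = b.1 * a.1
  ext1
  · simp [ha0, hb0]
  · simp [ha1, hb1]
  · simp [ha2, hb2]
  · simp [ha1, hb1, add_comm]

instance : Group.IsSolvable projK.ker :=
  Group.isSolvable_of_ker_le_range projXY.ker.subtype projXY (by simp)

instance : Group.IsSolvable Gam :=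
  Group.isSolvable_of_ker_le_range projK.ker.subtype projK (by simp)

instance (D : ℕ → Prop) : Group.IsSolvable (GD D) := by
  have hle : ND D ≤ (CD D).comap phi := le_refl _
  apply Group.isSolvable_of_isSolvable_injective (f := QuotientGroup.map (ND D) (CD D) phi hle)
  rw [injective_iff_map_eq_one]
  intro x hx
  obtain ⟨w, rfl⟩ := QuotientGroup.mk_surjective x
  rw [QuotientGroup.map_mk, QuotientGroup.eq_one_iff] at hx
  rw [QuotientGroup.eq_one_iff]
  exact hx

end Vale.Agent.Lib.P193
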